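import Mathlib

namespace Vale.Agent.Results.P062.SnakyStripFive

/-- A cell of the square grid, indexed by its lower-left corner. -/
abbrev Cell := ℤ × ℤ

/-- The hexomino Snaky. -/
def snaky : Finset Cell := {(0, 0), (1, 0), (2, 0), (3, 0), (3, 1), (4, 1)}

/-- The eight signed permutation matrices: optional swap of the coordinates,
then optional sign changes of the two coordinates. -/
def orient (sw sx sy : Bool) (c : Cell) : Cell :=
  ((if sx then -(if sw then c.2 else c.1) else (if sw then c.2 else c.1)),
   (if sy then -(if sw then c.1 else c.2) else (if sw then c.1 else c.2)))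

/-- Allowed copies of Snaky: images under a signed permutation matrix followed by a translation. -/
def IsCopy (C : Finset Cell) : Prop :=
  ∃ sw sx sy : Bool, ∃ t : Cell, C = snaky.image (fun c => t + orient sw sx sy c)

/-- Maker's first `k` moves, for the sequence `m` of Maker's moves. -/
def makerHist (m : ℕ → Cell) (k : ℕ) : List Cell := (List.range k).map m

/-- Breaker's first `k` moves when Breaker follows the strategy `σ` (a function of Maker's moves
so far and of Breaker's own earlier moves) against Maker's move sequence `m`. -/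
def breakerHist (σ : List Cell → List Cell → Cell) (m : ℕ → Cell) : ℕ → List Cell
  | 0 => []
  | k + 1 => breakerHist σ m k ++ [σ (makerHist m (k + 1)) (breakerHist σ m k)]

/-- Maker's first `n` moves are legal on the board `B`: each is a cell of `B` not claimed before. -/
def MakerLegal (B : Set Cell) (σ : List Cell → List Cell → Cell) (m : ℕ → Cell) (n : ℕ) : Prop :=
  ∀ k < n, m k ∈ B ∧ m k ∉ makerHist m k ∧ m k ∉ breakerHist σ m k

/-- Breaker wins the Snaky achievement game on the board `B` (Maker moves first, no handicap):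
there is a Breaker strategy such that, against every legal play of Maker, Breaker's reply
is always a legal move and Maker never owns all cells of an allowed copy lying inside `B`. -/
def BreakerWins (B : Set Cell) : Prop :=
  ∃ σ : List Cell → List Cell → Cell, ∀ (m : ℕ → Cell) (n : ℕ), MakerLegal B σ m (n + 1) →
    (σ (makerHist m (n + 1)) (breakerHist σ m n) ∈ B ∧
      σ (makerHist m (n + 1)) (breakerHist σ m n) ∉ makerHist m (n + 1) ∧
      σ (makerHist m (n + 1)) (breakerHist σ m n) ∉ breakerHist σ m n) ∧
    ¬ ∃ C : Finset Cell, IsCopy C ∧ (∀ c ∈ C, c ∈ B) ∧ ∀ c ∈ C, c ∈ makerHist m (n + 1)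

/-- The strip of width five. -/
def strip : Set Cell := {c | 0 ≤ c.2 ∧ c.2 ≤ 4}

/-! ### The pairing -/

/-- The partner of a cell in a pairing of the strip with period three. -/
def partner (c : Cell) : Cell :=
  if c.2 = 0 then
    (if c.1 % 3 = 0 then (c.1 + 2, 0) else if c.1 % 3 = 2 then (c.1 - 2, 0) else (c.1, 1))
  else if c.2 = 1 then
    (if c.1 % 3 = 1 then (c.1, 0) else if c.1 % 3 = 2 then (c.1 + 1, 1) else (c.1 - 1, 1))
  else if c.2 = 2 then
    (if c.1 % 3 = 1 then (c.1 + 1, 2) else if c.1 % 3 = 2 then (c.1 - 1, 2) else c)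
  else if c.2 = 3 then
    (if c.1 % 3 = 1 then (c.1, 4) else if c.1 % 3 = 2 then (c.1 + 1, 3) else (c.1 - 1, 3))
  else if c.2 = 4 then
    (if c.1 % 3 = 0 then (c.1 + 2, 4) else if c.1 % 3 = 2 then (c.1 - 2, 4) else (c.1, 3))
  else c

theorem partner_shift (x y q : ℤ) :
    partner (x + 3 * q, y) = ((partner (x, y)).1 + 3 * q, (partner (x, y)).2) := by
  simp only [partner, Int.add_mul_emod_self_left]
  split_ifs <;> simp <;> ring

theorem partner_strip (c : Cell) (h : c ∈ strip) : partner c ∈ strip := by
  obtain ⟨x, y⟩ := c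
  simp only [strip, Set.mem_ofPred_eq] at h ⊢
  simp only [partner]
  split_ifs <;> simp <;> omega

theorem partner_small : ∀ r ∈ Finset.range 3, ∀ y ∈ Finset.range 5,
    partner (partner ((r : ℤ), (y : ℤ))) = ((r : ℤ), (y : ℤ)) := by
  decide

theorem partner_invol (c : Cell) : partner (partner c) = c := by
  obtain ⟨x, y⟩ := c
  by_cases hy : 0 ≤ y ∧ y ≤ 4
  · have hx : x = (x % 3) + 3 * (x / 3) := (Int.emod_add_mul_ediv x 3).symm
    have h0 : 0 ≤ x % 3 := Int.emod_nonneg x (by norm_num)
    have h3 : x % 3 < 3 := Int.emod_lt_of_pos x (by norm_num)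
    obtain ⟨r, hr⟩ := Int.eq_ofNat_of_zero_le h0
    obtain ⟨yy, hyy⟩ := Int.eq_ofNat_of_zero_le hy.1
    have hr3 : r ∈ Finset.range 3 := by simp; omega
    have hy5 : yy ∈ Finset.range 5 := by simp; omega
    have key := partner_small r hr3 yy hy5
    rw [hx, partner_shift, partner_shift, hr, hyy]
    simp only [Prod.mk.eta]
    rw [key]
  · have : partner (x, y) = (x, y) := by
      simp only [partner]
      split_ifs <;> first | rfl | (exfalso; omega)
    rw [this, this]

/-! ### Every allowed copy inside the strip contains a pair -/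

theorem hit_small : ∀ sw sx sy : Bool, ∀ r ∈ Finset.range 3, ∀ y ∈ Finset.range 5,
    (∀ s ∈ snaky, 0 ≤ (y : ℤ) + (orient sw sx sy s).2 ∧ (y : ℤ) + (orient sw sx sy s).2 ≤ 4) →
    ∃ s ∈ snaky, ∃ s' ∈ snaky, orient sw sx sy s ≠ orient sw sx sy s' ∧
      partner ((r : ℤ) + (orient sw sx sy s).1, (y : ℤ) + (orient sw sx sy s).2) =
        ((r : ℤ) + (orient sw sx sy s').1, (y : ℤ) + (orient sw sx sy s').2) := by
  decide

theorem orient_zero (sw sx sy : Bool) : orient sw sx sy (0, 0) = (0, 0) := by
  cases sw <;> cases sx <;> cases sy <;> rfl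

theorem hit (C : Finset Cell) (hC : IsCopy C) (hS : ∀ c ∈ C, c ∈ strip) :
    ∃ c ∈ C, partner c ∈ C ∧ partner c ≠ c := by
  obtain ⟨sw, sx, sy, ⟨tx, ty⟩, rfl⟩ := hC
  have hmem : ∀ s ∈ snaky, ((tx, ty) : Cell) + orient sw sx sy s ∈
      snaky.image (fun c => ((tx, ty) : Cell) + orient sw sx sy c) := by
    intro s hs
    exact Finset.mem_image_of_mem _ hs
  have h00 : ((0, 0) : Cell) ∈ snaky := by decide
  have ht := hS _ (hmem _ h00)
  rw [orient_zero] at ht
  simp only [strip, Set.mem_ofPred_eq, Prod.snd_add, add_zero] at ht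
  have hx : tx = (tx % 3) + 3 * (tx / 3) := (Int.emod_add_mul_ediv tx 3).symm
  have h0 : 0 ≤ tx % 3 := Int.emod_nonneg tx (by norm_num)
  have h3 : tx % 3 < 3 := Int.emod_lt_of_pos tx (by norm_num)
  obtain ⟨r, hr⟩ := Int.eq_ofNat_of_zero_le h0
  obtain ⟨yy, hyy⟩ := Int.eq_ofNat_of_zero_le ht.1
  have hr3 : r ∈ Finset.range 3 := by simp; omega
  have hy5 : yy ∈ Finset.range 5 := by simp; omega
  have hbound : ∀ s ∈ snaky, 0 ≤ (yy : ℤ) + (orient sw sx sy s).2 ∧
      (yy : ℤ) + (orient sw sx sy s).2 ≤ 4 := by
    intro s hs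
    have := hS _ (hmem s hs)
    simp only [strip, Set.mem_ofPred_eq, Prod.snd_add] at this
    rw [← hyy]
    exact this
  obtain ⟨s, hs, s', hs', hne, hp⟩ := hit_small sw sx sy r hr3 yy hy5 hbound
  refine ⟨(tx, ty) + orient sw sx sy s, hmem s hs, ?_, ?_⟩
  · have : partner ((tx, ty) + orient sw sx sy s) = (tx, ty) + orient sw sx sy s' := by
      have e1 : ((tx, ty) : Cell) + orient sw sx sy s =
          (((r : ℤ) + (orient sw sx sy s).1) + 3 * (tx / 3), (yy : ℤ) + (orient sw sx sy s).2) := by
        ext
        · simp only [Prod.fst_add]; rw [← hr]; omega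
        · simp only [Prod.snd_add]; rw [← hyy]
      rw [e1, partner_shift, hp]
      ext
      · simp only [Prod.fst_add]; rw [← hr]; omega
      · simp only [Prod.snd_add]; rw [← hyy]
    rw [this]
    exact hmem s' hs'
  · have : partner ((tx, ty) + orient sw sx sy s) = (tx, ty) + orient sw sx sy s' := by
      have e1 : ((tx, ty) : Cell) + orient sw sx sy s =
          (((r : ℤ) + (orient sw sx sy s).1) + 3 * (tx / 3), (yy : ℤ) + (orient sw sx sy s).2) := by
        ext
        · simp only [Prod.fst_add]; rw [← hr]; omega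
        · simp only [Prod.snd_add]; rw [← hyy]
      rw [e1, partner_shift, hp]
      ext
      · simp only [Prod.fst_add]; rw [← hr]; omega
      · simp only [Prod.snd_add]; rw [← hyy]
    rw [this]
    intro h
    exact hne (add_left_cancel h).symm

/-! ### The pairing strategy -/

/-- A cell of the strip that is not in either list. -/
def fresh (hM hB : List Cell) : Cell := (1 + ((hM ++ hB).map (fun c => |c.1|)).sum, 0)

theorem fresh_not_mem (hM hB : List Cell) : fresh hM hB ∉ hM ++ hB := by
  intro h
  have h1 : |(fresh hM hB).1| ≤ ((hM ++ hB).map (fun c => |c.1|)).sum := by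
    apply List.single_le_sum
    · intro x hx
      obtain ⟨c, _, rfl⟩ := List.mem_map.1 hx
      exact abs_nonneg _
    · exact List.mem_map.2 ⟨_, h, rfl⟩
  have h2 : (fresh hM hB).1 = 1 + ((hM ++ hB).map (fun c => |c.1|)).sum := rfl
  have h3 := le_abs_self (fresh hM hB).1
  omega

/-- The pairing strategy: answer Maker's last move by its partner when that is possible. -/
def strat (hM hB : List Cell) : Cell :=
  if partner (hM.getLastD (0, 0)) ≠ hM.getLastD (0, 0) ∧ partner (hM.getLastD (0, 0)) ∉ hM ∧
      partner (hM.getLastD (0, 0)) ∉ hB then partner (hM.getLastD (0, 0)) else fresh hM hB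

theorem makerHist_succ (m : ℕ → Cell) (k : ℕ) : makerHist m (k + 1) = makerHist m k ++ [m k] := by
  simp [makerHist, List.range_succ]

theorem mem_makerHist (m : ℕ → Cell) (k : ℕ) (c : Cell) :
    c ∈ makerHist m k ↔ ∃ i < k, c = m i := by
  simp only [makerHist, List.mem_map, List.mem_range]
  constructor
  · rintro ⟨i, hi, rfl⟩; exact ⟨i, hi, rfl⟩
  · rintro ⟨i, hi, rfl⟩; exact ⟨i, hi, rfl⟩

theorem mem_breakerHist (σ : List Cell → List Cell → Cell) (m : ℕ → Cell) (k : ℕ) (c : Cell) :
    c ∈ breakerHist σ m k ↔ ∃ i < k, c = σ (makerHist m (i + 1)) (breakerHist σ m i) := by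
  induction k with
  | zero => simp [breakerHist]
  | succ k ih =>
    simp only [breakerHist, List.mem_append, List.mem_singleton, ih]
    constructor
    · rintro (⟨i, hi, rfl⟩ | rfl)
      · exact ⟨i, by omega, rfl⟩
      · exact ⟨k, by omega, rfl⟩
    · rintro ⟨i, hi, rfl⟩
      by_cases h : i < k
      · exact Or.inl ⟨i, h, rfl⟩
      · have : i = k := by omega
        subst this
        exact Or.inr rfl

theorem strat_legal (m : ℕ → Cell) (k : ℕ) (hk : m k ∈ strip) :
    strat (makerHist m (k + 1)) (breakerHist strat m k) ∈ strip ∧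
    strat (makerHist m (k + 1)) (breakerHist strat m k) ∉ makerHist m (k + 1) ∧
    strat (makerHist m (k + 1)) (breakerHist strat m k) ∉ breakerHist strat m k := by
  have hlast : (makerHist m (k + 1)).getLastD (0, 0) = m k := by
    rw [makerHist_succ]; simp
  unfold strat
  rw [hlast]
  split_ifs with h
  · exact ⟨partner_strip _ hk, h.2.1, h.2.2⟩
  · have hf := fresh_not_mem (makerHist m (k + 1)) (breakerHist strat m k)
    rw [List.mem_append, not_or] at hf
    refine ⟨?_, hf.1, hf.2⟩
    simp [strip, fresh]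

theorem strat_inv (m : ℕ → Cell) (n : ℕ) (hL : MakerLegal strip strat m n) :
    ∀ k < n, partner (m k) ≠ m k → partner (m k) ∈ breakerHist strat m (k + 1) := by
  intro k
  induction k using Nat.strong_induction_on with
  | _ k ih =>
    intro hk hne
    have hlast : (makerHist m (k + 1)).getLastD (0, 0) = m k := by
      rw [makerHist_succ]; simp
    by_cases hc : partner (m k) ∉ makerHist m (k + 1) ∧ partner (m k) ∉ breakerHist strat m k
    · have : strat (makerHist m (k + 1)) (breakerHist strat m k) = partner (m k) := by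
        unfold strat
        rw [hlast, if_pos ⟨hne, hc.1, hc.2⟩]
      rw [mem_breakerHist]
      exact ⟨k, by omega, this.symm⟩
    · rw [not_and_or, not_not, not_not] at hc
      rcases hc with hc | hc
      · exfalso
        rw [mem_makerHist] at hc
        obtain ⟨i, hi, hpi⟩ := hc
        have hik : i ≠ k := by
          intro h; subst h; exact hne hpi
        have hi' : i < k := by omega
        have hne' : partner (m i) ≠ m i := by
          rw [← hpi, partner_invol]
          exact fun h => hne h.symm
        have h1 := ih i hi' (by omega) hne'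
        rw [← hpi, partner_invol, mem_breakerHist] at h1
        obtain ⟨j, hj, hmj⟩ := h1
        have h2 := (hL k hk).2.2
        apply h2
        rw [mem_breakerHist]
        exact ⟨j, by omega, hmj⟩
      · rw [mem_breakerHist] at hc ⊢
        obtain ⟨j, hj, hmj⟩ := hc
        exact ⟨j, by omega, hmj⟩

theorem result : BreakerWins {c : Cell | 0 ≤ c.2 ∧ c.2 ≤ 4} := by
  refine ⟨strat, ?_⟩
  intro m n hL
  have hL' : MakerLegal strip strat m (n + 1) := hL
  refine ⟨strat_legal m n (hL' n (by omega)).1, ?_⟩
  rintro ⟨C, hC, hCB, hCM⟩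
  obtain ⟨c, hc, hpc, hne⟩ := hit C hC hCB
  obtain ⟨k, hk, rfl⟩ := (mem_makerHist m (n + 1) c).1 (hCM c hc)
  obtain ⟨l, hl, hml⟩ := (mem_makerHist m (n + 1) _).1 (hCM _ hpc)
  have h1 := strat_inv m (n + 1) hL' k hk hne
  rw [mem_breakerHist] at h1
  obtain ⟨i, hi, hbi⟩ := h1
  by_cases hli : l ≤ i
  · have h2 := (strat_legal m i (hL' i (by omega)).1).2.1
    apply h2
    rw [← hbi, hml, mem_makerHist]
    exact ⟨l, by omega, rfl⟩
  · have h2 := (hL' l hl).2.2
    apply h2
    rw [← hml, hbi, mem_breakerHist]
    exact ⟨i, by omega, rfl⟩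

end Vale.Agent.Results.P062.SnakyStripFive
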