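import Mathlib

namespace Vale.Agent.Results.P062.StripPairing

/-- The Snaky hexomino. -/
def snaky : Finset (ℤ × ℤ) := {(0, 0), (1, 0), (2, 0), (3, 0), (3, 1), (4, 1)}

/-- The eight signed permutation maps of the square grid: `sx, sy` are signs,
`swap` says whether the two coordinates are exchanged. -/
def signedPerm (swap : Bool) (sx sy : ℤ) (p : ℤ × ℤ) : ℤ × ℤ :=
  if swap then (sx * p.2, sy * p.1) else (sx * p.1, sy * p.2)

/-- `C` is an allowed copy of Snaky: a translate of the image of Snaky under one of the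
eight signed permutation maps. -/
def IsCopy (C : Finset (ℤ × ℤ)) : Prop :=
  ∃ (swap : Bool) (sx sy : ℤ) (t : ℤ × ℤ), (sx = 1 ∨ sx = -1) ∧ (sy = 1 ∨ sy = -1) ∧
    C = snaky.image (fun p => t + signedPerm swap sx sy p)

/-- The board: the infinite strip of cells `(x, y)` with `0 ≤ y < w`. -/
def strip (w : ℤ) : Set (ℤ × ℤ) := {p | 0 ≤ p.2 ∧ p.2 < w}

/-- offset to the partner of the cell `(x, y)`, as a function of `x mod 3` and `y`. -/
def dN : ℕ → ℕ → ℤ × ℤ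
  | 1, 3 => (0, 1)
  | 1, 4 => (0, -1)
  | 1, 0 => (0, 1)
  | 1, 1 => (0, -1)
  | 2, 3 => (1, 0)
  | 0, 3 => (-1, 0)
  | 2, 1 => (1, 0)
  | 0, 1 => (-1, 0)
  | 1, 2 => (1, 0)
  | 2, 2 => (-1, 0)
  | 0, 4 => (2, 0)
  | 2, 4 => (-2, 0)
  | 0, 0 => (2, 0)
  | 2, 0 => (-2, 0)
  | _, _ => (0, 0)

def d (p : ℤ × ℤ) : ℤ × ℤ := dN (p.1 % 3).toNat p.2.toNat

theorem d_shift (k x y : ℤ) : d (3 * k + x, y) = d (x, y) := by
  simp only [d]
  rw [Int.mul_add_emod_self_left]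

/-- the family of pairs -/
def pairs : Set (Finset (ℤ × ℤ)) :=
  {e | ∃ p : ℤ × ℤ, 0 ≤ p.2 ∧ p.2 < 5 ∧ d p ≠ (0, 0) ∧ e = {p, p + d p}}

theorem invol_fin : ∀ r : Fin 3, ∀ y : Fin 5,
    d ((r : ℤ), (y : ℤ)) ≠ (0, 0) →
      (0 ≤ (y : ℤ) + (d ((r : ℤ), (y : ℤ))).2 ∧ (y : ℤ) + (d ((r : ℤ), (y : ℤ))).2 < 5) ∧
      d (((r : ℤ), (y : ℤ)) + d ((r : ℤ), (y : ℤ))) = - d ((r : ℤ), (y : ℤ)) := by
  decide

theorem invol (p : ℤ × ℤ) (h0 : 0 ≤ p.2) (h5 : p.2 < 5) (hd : d p ≠ (0, 0)) :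
    (0 ≤ (p + d p).2 ∧ (p + d p).2 < 5) ∧ d (p + d p) = - d p := by
  obtain ⟨x, y⟩ := p
  simp only at h0 h5
  have hx : x = 3 * (x / 3) + x % 3 := (Int.mul_ediv_add_emod x 3).symm
  have hr0 : 0 ≤ x % 3 := Int.emod_nonneg x (by norm_num)
  have hr3 : x % 3 < 3 := Int.emod_lt_of_pos x (by norm_num)
  obtain ⟨r, hr⟩ : ∃ r : Fin 3, (r : ℤ) = x % 3 :=
    ⟨⟨(x % 3).toNat, by omega⟩, by simp [Int.toNat_of_nonneg hr0]⟩
  obtain ⟨y', hy'⟩ : ∃ y' : Fin 5, (y' : ℤ) = y :=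
    ⟨⟨y.toNat, by omega⟩, by simp [Int.toNat_of_nonneg h0]⟩
  have key := invol_fin r y'
  rw [hr, hy'] at key
  have e1 : d (x, y) = d (x % 3, y) := by
    conv_lhs => rw [hx]
    exact d_shift _ _ _
  rw [e1] at hd ⊢
  obtain ⟨k1, k2⟩ := key hd
  refine ⟨k1, ?_⟩
  rw [← k2]
  have : ((x, y) : ℤ × ℤ) + d (x % 3, y) = (3 * (x / 3) + (x % 3 + (d (x % 3, y)).1), y + (d (x % 3, y)).2) := by
    ext
    · simp only [Prod.fst_add]; omega
    · simp only [Prod.snd_add]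
  rw [this, d_shift]
  rfl

def cells : List (ℤ × ℤ) := [(0, 0), (1, 0), (2, 0), (3, 0), (3, 1), (4, 1)]

theorem mem_snaky_iff (s : ℤ × ℤ) : s ∈ snaky ↔ s ∈ cells := by
  simp [snaky, cells]

theorem cover_fin : ∀ swap : Bool, ∀ sx ∈ ({1, -1} : Finset ℤ), ∀ sy ∈ ({1, -1} : Finset ℤ),
    ∀ r : Fin 3, ∀ v : Fin 5,
    (∀ s ∈ cells, 0 ≤ (v : ℤ) + (signedPerm swap sx sy s).2 ∧
        (v : ℤ) + (signedPerm swap sx sy s).2 < 5) →
    ∃ s ∈ cells, ∃ s' ∈ cells,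
      d ((r : ℤ) + (signedPerm swap sx sy s).1, (v : ℤ) + (signedPerm swap sx sy s).2) ≠ (0, 0) ∧
      signedPerm swap sx sy s +
        d ((r : ℤ) + (signedPerm swap sx sy s).1, (v : ℤ) + (signedPerm swap sx sy s).2)
        = signedPerm swap sx sy s' := by
  decide

theorem pair_of_mem (p c : ℤ × ℤ) (h0 : 0 ≤ p.2) (h5 : p.2 < 5) (hd : d p ≠ (0, 0))
    (hc : c ∈ ({p, p + d p} : Finset (ℤ × ℤ))) :
    ({c, c + d c} : Finset (ℤ × ℤ)) = {p, p + d p} := by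
  obtain ⟨_, h2⟩ := invol p h0 h5 hd
  rw [Finset.mem_insert, Finset.mem_singleton] at hc
  rcases hc with rfl | rfl
  · rfl
  · rw [h2]
    have : p + d p + -d p = p := by abel
    rw [this, Finset.pair_comm]

theorem result : ∃ P : Set (Finset (ℤ × ℤ)),
    (∀ e ∈ P, e.card = 2 ∧ (↑e : Set (ℤ × ℤ)) ⊆ strip 5) ∧
    (∀ e ∈ P, ∀ e' ∈ P, e ≠ e' → Disjoint e e') ∧
    (∀ C : Finset (ℤ × ℤ), IsCopy C → (↑C : Set (ℤ × ℤ)) ⊆ strip 5 → ∃ e ∈ P, e ⊆ C) := by
  refine ⟨pairs, ?_, ?_, ?_⟩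
  · rintro e ⟨p, h0, h5, hd, rfl⟩
    obtain ⟨⟨k0, k5⟩, _⟩ := invol p h0 h5 hd
    constructor
    · apply Finset.card_pair
      intro h
      apply hd
      have : p + d p = p + 0 := by rw [add_zero]; exact h.symm
      exact add_left_cancel this
    · intro c hc
      simp only [Finset.coe_insert, Finset.coe_singleton, Set.mem_insert_iff,
        Set.mem_singleton_iff] at hc
      rcases hc with rfl | rfl
      · exact ⟨h0, h5⟩
      · exact ⟨k0, k5⟩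
  · rintro e ⟨p, h0, h5, hd, rfl⟩ e' ⟨q, g0, g5, gd, rfl⟩ hne
    rw [Finset.disjoint_left]
    intro c hc hc'
    apply hne
    rw [← pair_of_mem p c h0 h5 hd hc, ← pair_of_mem q c g0 g5 gd hc']
  · rintro C ⟨swap, sx, sy, t, hsx, hsy, rfl⟩ hC
    obtain ⟨tx, ty⟩ := t
    have hin : ∀ s ∈ snaky, 0 ≤ ty + (signedPerm swap sx sy s).2 ∧
        ty + (signedPerm swap sx sy s).2 < 5 := by
      intro s hs
      have : ((tx, ty) + signedPerm swap sx sy s) ∈ strip 5 :=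
        hC (Finset.mem_coe.mpr (Finset.mem_image_of_mem _ hs))
      simpa [strip] using this
    have h00 : signedPerm swap sx sy (0, 0) = (0, 0) := by
      unfold signedPerm; split <;> simp
    have hty := hin (0, 0) (by simp [snaky])
    rw [h00] at hty
    simp only [add_zero] at hty
    have hr0 : 0 ≤ tx % 3 := Int.emod_nonneg tx (by norm_num)
    have hr3 : tx % 3 < 3 := Int.emod_lt_of_pos tx (by norm_num)
    obtain ⟨r, hr⟩ : ∃ r : Fin 3, (r : ℤ) = tx % 3 :=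
      ⟨⟨(tx % 3).toNat, by omega⟩, by simp [Int.toNat_of_nonneg hr0]⟩
    obtain ⟨v, hv⟩ : ∃ v : Fin 5, (v : ℤ) = ty :=
      ⟨⟨ty.toNat, by omega⟩, by simp [Int.toNat_of_nonneg hty.1]⟩
    have hsx' : sx ∈ ({1, -1} : Finset ℤ) := by simpa using hsx
    have hsy' : sy ∈ ({1, -1} : Finset ℤ) := by simpa using hsy
    have key := cover_fin swap sx hsx' sy hsy' r v
    rw [hr, hv] at key
    obtain ⟨s, hs, s', hs', hd, hpair⟩ := key (fun s hs => hin s ((mem_snaky_iff s).mpr hs))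
    rw [← mem_snaky_iff] at hs hs'
    have hx : tx = 3 * (tx / 3) + tx % 3 := (Int.mul_ediv_add_emod tx 3).symm
    have e1 : d ((tx, ty) + signedPerm swap sx sy s)
        = d (tx % 3 + (signedPerm swap sx sy s).1, ty + (signedPerm swap sx sy s).2) := by
      have : ((tx, ty) : ℤ × ℤ) + signedPerm swap sx sy s
          = (3 * (tx / 3) + (tx % 3 + (signedPerm swap sx sy s).1),
              ty + (signedPerm swap sx sy s).2) := by
        ext
        · simp only [Prod.fst_add]; omega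
        · simp only [Prod.snd_add]
      rw [this, d_shift]
    refine ⟨{(tx, ty) + signedPerm swap sx sy s,
        (tx, ty) + signedPerm swap sx sy s + d ((tx, ty) + signedPerm swap sx sy s)}, ?_, ?_⟩
    · refine ⟨(tx, ty) + signedPerm swap sx sy s, ?_, ?_, ?_, rfl⟩
      · exact (hin s hs).1
      · exact (hin s hs).2
      · rw [e1]; exact hd
    · intro c hc
      rw [Finset.mem_insert, Finset.mem_singleton] at hc
      rcases hc with rfl | rfl
      · exact Finset.mem_image_of_mem _ hs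
      · rw [e1, add_assoc, hpair]
        exact Finset.mem_image_of_mem _ hs'

end Vale.Agent.Results.P062.StripPairing
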